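import Vale.Agent.Lib.P079.BConvex

/-!
# P079: the FPP from a suppression constant close to one and uniform non-`ℓ₁ᵏ`-ness
-/

namespace Vale.Agent.Results.P079.GeneralSuppression

open Vale.Agent.Lib.P079

/-- Let `X` be a reflexive real Banach space with a Schauder basis of suppression unconditional
constant at most `c`, and assume that `X` is uniformly non-`ℓ₁ᵏ` with constant `δ`.  If
`c ((k - 1) + c (1 - δ)) < k`, then `X` has the fixed point property for nonexpansive maps. -/
theorem result (X : Type*) [NormedAddCommGroup X] [NormedSpace ℝ X] [CompleteSpace X]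
    (hrefl : IsReflexive X) (b : SchauderBasis ℝ X) (c : ℝ) (hc : 1 ≤ c) (hb : Supp b c)
    (k : ℕ) (δ : ℝ) (hk : 2 ≤ k) (hB : UniformlyNonL1 X k δ)
    (hcond : c * (((k : ℝ) - 1) + c * (1 - δ)) < k) : HasFPP X := by
  intro C hne hcl hbd hcv T hT
  exact hasFPP_of_supp hrefl hb (by linarith) (by omega) hB hcond C hne hcl hbd hcv T hT

end Vale.Agent.Results.P079.GeneralSuppression
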