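import Vale.Agent.Lib.P079.L1Model

/-!
# P079: in a reflexive space with a suppression 1-unconditional basis, the only obstruction to the
FPP is a weakly null sequence generating an isometric `ℓ₁` spreading model
-/

namespace Vale.Agent.Results.P079.L1SpreadingModel

open Vale.Agent.Lib.P079

/-- Let `X` be a reflexive real Banach space with a suppression 1-unconditional Schauder basis.
Then either `X` has the fixed point property for nonexpansive maps, or the unit ball of `X`
contains a weakly null sequence generating a spreading model isometric to `ℓ₁`. -/
theorem result (X : Type*) [NormedAddCommGroup X] [NormedSpace ℝ X] [CompleteSpace X]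
    (hrefl : IsReflexive X) (b : SchauderBasis ℝ X) (hb : Supp b 1) :
    HasFPP X ∨ HasWeaklyNullL1SpreadingModel X := by
  by_cases h : HasWeaklyNullL1SpreadingModel X
  · exact Or.inr h
  · exact Or.inl (hasFPP_of_no_l1_model hrefl hb h)

end Vale.Agent.Results.P079.L1SpreadingModel
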