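import Vale.Agent.Lib.P079.BConvex

/-!
# P079: reflexive B-convex spaces with a suppression 1-unconditional basis have the FPP
-/

namespace Vale.Agent.Results.P079.SuppressionBConvex

open Vale.Agent.Lib.P079

/-- Every reflexive real Banach space which has a suppression 1-unconditional Schauder basis and
is B-convex (uniformly non-`ℓ₁ᵏ` for some `k ≥ 2`) has the fixed point property for nonexpansive
maps. -/
theorem result (X : Type*) [NormedAddCommGroup X] [NormedSpace ℝ X] [CompleteSpace X]
    (hrefl : IsReflexive X) (b : SchauderBasis ℝ X) (hb : Supp b 1)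
    (k : ℕ) (δ : ℝ) (hk : 2 ≤ k) (hδ : 0 < δ) (hB : UniformlyNonL1 X k δ) : HasFPP X := by
  refine hasFPP_of_supp hrefl hb zero_le_one (by omega) hB ?_
  linarith

end Vale.Agent.Results.P079.SuppressionBConvex
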