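import Vale.Agent.Results.P079.BanachSaks
import Vale.Agent.Results.P079.GeneralSuppression
import Vale.Agent.Results.P079.L1SpreadingModel
import Vale.Agent.Results.P079.SuppressionBConvex

/-!
# P079: the four results on reflexive spaces with a suppression unconditional basis, in one theorem
-/

namespace Vale.Agent.Results.P079.A_Combined

open Vale.Agent.Lib.P079

universe u

/-- (1) dichotomy: FPP or an isometric `ℓ₁` spreading model; (2) FPP from a suppression constant
close to one and uniform non-`ℓ₁ᵏ`-ness; (3) FPP for Banach-Saks spaces; (4) FPP for B-convex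
spaces. -/
theorem result :
    (∀ (X : Type u) [NormedAddCommGroup X] [NormedSpace ℝ X] [CompleteSpace X],
      IsReflexive X → ∀ b : SchauderBasis ℝ X, Supp b 1 →
      HasFPP X ∨ HasWeaklyNullL1SpreadingModel X) ∧
    (∀ (X : Type u) [NormedAddCommGroup X] [NormedSpace ℝ X] [CompleteSpace X],
      IsReflexive X → ∀ (b : SchauderBasis ℝ X) (c : ℝ), 1 ≤ c → Supp b c →
      ∀ (k : ℕ) (δ : ℝ), 2 ≤ k → UniformlyNonL1 X k δ →
      c * (((k : ℝ) - 1) + c * (1 - δ)) < k → HasFPP X) ∧
    (∀ (X : Type u) [NormedAddCommGroup X] [NormedSpace ℝ X] [CompleteSpace X],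
      IsReflexive X → ∀ b : SchauderBasis ℝ X, Supp b 1 → HasBanachSaks X → HasFPP X) ∧
    (∀ (X : Type u) [NormedAddCommGroup X] [NormedSpace ℝ X] [CompleteSpace X],
      IsReflexive X → ∀ b : SchauderBasis ℝ X, Supp b 1 →
      ∀ (k : ℕ) (δ : ℝ), 2 ≤ k → 0 < δ → UniformlyNonL1 X k δ → HasFPP X) :=
  ⟨fun X _ _ _ h b hb => L1SpreadingModel.result X h b hb,
   fun X _ _ _ h b c hc hb k δ hk hB hcond =>
     GeneralSuppression.result X h b c hc hb k δ hk hB hcond,
   fun X _ _ _ h b hb hBS => BanachSaks.result X h b hb hBS,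
   fun X _ _ _ h b hb k δ hk hδ hB => SuppressionBConvex.result X h b hb k δ hk hδ hB⟩

end Vale.Agent.Results.P079.A_Combined
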