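import Vale.Agent.Lib.P079.Spreading

/-!
# P079: reflexive spaces with the Banach-Saks property and a suppression 1-unconditional basis
have the FPP
-/

namespace Vale.Agent.Results.P079.BanachSaks

open Vale.Agent.Lib.P079

/-- Every reflexive real Banach space which has a suppression 1-unconditional Schauder basis and
the Banach-Saks property (every bounded sequence has a subsequence with norm convergent Cesaro
means) has the fixed point property for nonexpansive maps. -/
theorem result (X : Type*) [NormedAddCommGroup X] [NormedSpace ℝ X] [CompleteSpace X]
    (hrefl : IsReflexive X) (b : SchauderBasis ℝ X) (hb : Supp b 1)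
    (hBS : HasBanachSaks X) : HasFPP X :=
  hasFPP_of_banachSaks hrefl hb hBS

end Vale.Agent.Results.P079.BanachSaks
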